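/-
S0066 (row 47) — package R1b (second track, helper15): the crown lemma `crown_lines`.
Self-contained: imports only helper5's `Defs`; the three R1a facts are re-proved here.
-/
import Crest.Agent.Helper5.S0066.Defs

set_option autoImplicit false

namespace Crest.Agent.Helper15.S0066

open Crest.Agent.Helper5.S0066 Crest.Agent.Helper5.S0066.Line

variable {h : ℕ}

/-! ### R1a (own copies) -/

theorem div_pow_mono {x y m J : ℕ} (hmJ : m ≤ J) (hxy : x / 2 ^ m = y / 2 ^ m) :
    x / 2 ^ J = y / 2 ^ J := by
  obtain ⟨d, rfl⟩ := Nat.exists_eq_add_of_le hmJ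
  rw [pow_add, ← Nat.div_div_eq_div_mul, ← Nat.div_div_eq_div_mul, hxy]

theorem isTree_of_isPay_of_M_false_row {p q : Line h} (hp : p.isPay = true) (hq : q.isPay = true)
    (hpq : M p q = false) : p.isTree = true := by
  cases p with
  | Y i => rw [M_Y_pay hq] at hpq; exact absurd hpq (by simp)
  | leaf x => rfl
  | core j k y => rfl
  | Z i => simp [isPay] at hp
  | crown a i => simp [isPay] at hp
  | thr g θ i => simp [isPay] at hp

theorem isTree_of_isPay_of_M_false_col {p q : Line h} (hp : p.isPay = true) (hq : q.isPay = true)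
    (hpq : M p q = false) : q.isTree = true := by
  cases q with
  | Y i => rw [M_pay_Y hp] at hpq; exact absurd hpq (by simp)
  | leaf x => rfl
  | core j k y => rfl
  | Z i => simp [isPay] at hq
  | crown a i => simp [isPay] at hq
  | thr g θ i => simp [isPay] at hq

/-- **R1a.** Payload × payload contains no 3-crown. -/
theorem pay_no_crown3 (R C : Fin 3 → Line h) (hR : ∀ a, (R a).isPay = true)
    (hC : ∀ a, (C a).isPay = true) (hM : ∀ a b, M (R a) (C b) = decide (a ≠ b)) : False := by
  have hdiag : ∀ a, M (R a) (C a) = false := fun a => by simpa using hM a a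
  have hRt : ∀ a, (R a).isTree = true := fun a =>
    isTree_of_isPay_of_M_false_row (hR a) (hC a) (hdiag a)
  have hCt : ∀ a, (C a).isTree = true := fun a =>
    isTree_of_isPay_of_M_false_col (hR a) (hC a) (hdiag a)
  have hN : ∀ a b, nest (R a) (C b) = decide (a ≠ b) := fun a b => by
    rw [← M_tree_tree (hRt a) (hCt b)]; exact hM a b
  obtain ⟨a0, -, ha0⟩ := Finset.exists_max_image (Finset.univ : Finset (Fin 3))
    (fun a => max (R a).lvl (C a).lvl) ⟨0, Finset.mem_univ _⟩
  set J := max (R a0).lvl (C a0).lvl with hJ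
  have hRJ : ∀ a, (R a).lvl ≤ J := fun a =>
    le_trans (le_max_left _ _) (ha0 a (Finset.mem_univ _))
  have hCJ : ∀ a, (C a).lvl ≤ J := fun a =>
    le_trans (le_max_right _ _) (ha0 a (Finset.mem_univ _))
  have hanc : ∀ a b, a ≠ b → (R a).pos / 2 ^ J = (C b).pos / 2 ^ J := by
    intro a b hab
    have h1 := hN a b
    simp only [nest, hab, ne_eq, not_false_eq_true, decide_true, decide_eq_true_eq] at h1
    exact div_pow_mono (max_le (hRJ a) (hCJ b)) h1
  have hex : ∀ a : Fin 3, ∃ b c : Fin 3, b ≠ a ∧ c ≠ a ∧ c ≠ b := by decide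
  obtain ⟨b, c, hba, hca, hcb⟩ := hex a0
  have e1 := hanc a0 b (Ne.symm hba)
  have e2 := hanc c b hcb
  have e3 := hanc c a0 hca
  have e4 : (R a0).pos / 2 ^ J = (C a0).pos / 2 ^ J := by rw [e1, ← e2, e3]
  have h2 := hN a0 a0
  simp only [nest, ne_eq, not_true_eq_false, decide_false, decide_eq_false_iff_not] at h2
  exact h2 e4

/-- **R1a.** Marker rows × payload columns contain no 2-crown. -/
theorem mark_pay_nested (R C : Fin 2 → Line h) (hR : ∀ a, (R a).isPay = false)
    (hC : ∀ a, (C a).isPay = true) (hM : ∀ a b, M (R a) (C b) = decide (a ≠ b)) : False := by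
  have h00 : M (R 0) (C 0) = false := by simpa using hM 0 0
  have h11 : M (R 1) (C 1) = false := by simpa using hM 1 1
  have h01 : M (R 0) (C 1) = true := by simpa using hM 0 1
  have h10 : M (R 1) (C 0) = true := by simpa using hM 1 0
  have hR0 := hR 0
  have hR1 := hR 1
  cases hr0 : R 0 with
  | Y i => rw [hr0] at hR0; simp [isPay] at hR0
  | leaf x => rw [hr0] at hR0; simp [isPay] at hR0
  | core j k y => rw [hr0] at hR0; simp [isPay] at hR0
  | Z i => rw [hr0, M_Z_pay (hC 0)] at h00; exact absurd h00 (by simp)
  | crown a i => rw [hr0, M_crown_pay (hC 1)] at h01; exact absurd h01 (by simp)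
  | thr g θ i =>
    cases hr1 : R 1 with
    | Y i => rw [hr1] at hR1; simp [isPay] at hR1
    | leaf x => rw [hr1] at hR1; simp [isPay] at hR1
    | core j k y => rw [hr1] at hR1; simp [isPay] at hR1
    | Z i => rw [hr1, M_Z_pay (hC 1)] at h11; exact absurd h11 (by simp)
    | crown a i => rw [hr1, M_crown_pay (hC 0)] at h10; exact absurd h10 (by simp)
    | thr g' θ' i' =>
      rw [hr0, M_thr_pay (hC 0)] at h00
      rw [hr0, M_thr_pay (hC 1)] at h01
      rw [hr1, M_thr_pay (hC 0)] at h10
      rw [hr1, M_thr_pay (hC 1)] at h11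
      simp only [decide_eq_true_eq, decide_eq_false_iff_not, not_le] at h00 h01 h10 h11
      omega

/-- **R1a.** Payload rows × marker columns contain no 2-crown. -/
theorem pay_mark_nested (R C : Fin 2 → Line h) (hR : ∀ a, (R a).isPay = true)
    (hC : ∀ a, (C a).isPay = false) (hM : ∀ a b, M (R a) (C b) = decide (a ≠ b)) : False := by
  have h00 : M (R 0) (C 0) = false := by simpa using hM 0 0
  have h11 : M (R 1) (C 1) = false := by simpa using hM 1 1
  have h01 : M (R 0) (C 1) = true := by simpa using hM 0 1
  have h10 : M (R 1) (C 0) = true := by simpa using hM 1 0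
  have hC0 := hC 0
  have hC1 := hC 1
  cases hc0 : C 0 with
  | Y i => rw [hc0] at hC0; simp [isPay] at hC0
  | leaf x => rw [hc0] at hC0; simp [isPay] at hC0
  | core j k y => rw [hc0] at hC0; simp [isPay] at hC0
  | Z i => rw [hc0, M_pay_Z (hR 0)] at h00; exact absurd h00 (by simp)
  | crown a i => rw [hc0, M_pay_crown (hR 1)] at h10; exact absurd h10 (by simp)
  | thr g θ i =>
    cases hc1 : C 1 with
    | Y i => rw [hc1] at hC1; simp [isPay] at hC1
    | leaf x => rw [hc1] at hC1; simp [isPay] at hC1
    | core j k y => rw [hc1] at hC1; simp [isPay] at hC1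
    | Z i => rw [hc1, M_pay_Z (hR 1)] at h11; exact absurd h11 (by simp)
    | crown a i => rw [hc1, M_pay_crown (hR 0)] at h01; exact absurd h01 (by simp)
    | thr g' θ' i' =>
      rw [hc0, M_pay_thr (hR 0)] at h00
      rw [hc0, M_pay_thr (hR 1)] at h10
      rw [hc1, M_pay_thr (hR 0)] at h01
      rw [hc1, M_pay_thr (hR 1)] at h11
      simp only [decide_eq_true_eq, decide_eq_false_iff_not, not_le] at h00 h01 h10 h11
      omega

/-! ### Marker types -/

/-- Type code of a marker line (the copy number is erased); junk `0` on payload lines. -/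
def ty : Line h → ℕ
  | .Z _ => 1
  | .crown a _ => 2 + a.val
  | .thr g θ _ => 61 + 4 * g.code + θ.val
  | _ => 0

/-- Marker columns of the same type are indistinguishable by any row. -/
theorem M_col_of_ty (r : Line h) {c c' : Line h} (hc : c.isPay = false) (hc' : c'.isPay = false)
    (ht : ty c = ty c') : M r c = M r c' := by
  cases c with
  | Y i => simp [isPay] at hc
  | leaf x => simp [isPay] at hc
  | core j k y => simp [isPay] at hc
  | Z i =>
    cases c' with
    | Y i => simp [isPay] at hc'
    | leaf x => simp [isPay] at hc'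
    | core j k y => simp [isPay] at hc'
    | Z i' => exact M_Z_col r i i'
    | crown a' i' => simp only [ty] at ht; omega
    | thr g' θ' i' => simp only [ty] at ht; omega
  | crown a i =>
    cases c' with
    | Y i => simp [isPay] at hc'
    | leaf x => simp [isPay] at hc'
    | core j k y => simp [isPay] at hc'
    | Z i' => simp only [ty] at ht; omega
    | crown a' i' =>
      simp only [ty] at ht
      have : a = a' := Fin.ext (by omega)
      subst this
      exact M_crown_col r a i i'
    | thr g' θ' i' =>
      simp only [ty] at ht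
      have := a.isLt
      omega
  | thr g θ i =>
    cases c' with
    | Y i => simp [isPay] at hc'
    | leaf x => simp [isPay] at hc'
    | core j k y => simp [isPay] at hc'
    | Z i' => simp only [ty] at ht; omega
    | crown a' i' =>
      simp only [ty] at ht
      have := a'.isLt
      omega
    | thr g' θ' i' =>
      simp only [ty] at ht
      have h1 := θ.isLt
      have h2 := θ'.isLt
      have hg : g = g' := Grp.code_injective (by omega)
      have hθ : θ = θ' := Fin.ext (by omega)
      subst hg hθ
      exact M_thr_col r g θ i i'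

/-- Marker rows of the same type are indistinguishable by any column. -/
theorem M_row_of_ty (c : Line h) {r r' : Line h} (hr : r.isPay = false) (hr' : r'.isPay = false)
    (ht : ty r = ty r') : M r c = M r' c := by
  cases r with
  | Y i => simp [isPay] at hr
  | leaf x => simp [isPay] at hr
  | core j k y => simp [isPay] at hr
  | Z i =>
    cases r' with
    | Y i => simp [isPay] at hr'
    | leaf x => simp [isPay] at hr'
    | core j k y => simp [isPay] at hr'
    | Z i' => exact M_Z_row c i i'
    | crown a' i' => simp only [ty] at ht; omega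
    | thr g' θ' i' => simp only [ty] at ht; omega
  | crown a i =>
    cases r' with
    | Y i => simp [isPay] at hr'
    | leaf x => simp [isPay] at hr'
    | core j k y => simp [isPay] at hr'
    | Z i' => simp only [ty] at ht; omega
    | crown a' i' =>
      simp only [ty] at ht
      have : a = a' := Fin.ext (by omega)
      subst this
      exact M_crown_row c a i i'
    | thr g' θ' i' =>
      simp only [ty] at ht
      have := a.isLt
      omega
  | thr g θ i =>
    cases r' with
    | Y i => simp [isPay] at hr'
    | leaf x => simp [isPay] at hr'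
    | core j k y => simp [isPay] at hr'
    | Z i' => simp only [ty] at ht; omega
    | crown a' i' =>
      simp only [ty] at ht
      have := a'.isLt
      omega
    | thr g' θ' i' =>
      simp only [ty] at ht
      have h1 := θ.isLt
      have h2 := θ'.isLt
      have hg : g = g' := Grp.code_injective (by omega)
      have hθ : θ = θ' := Fin.ext (by omega)
      subst hg hθ
      exact M_thr_row c g θ i i'

/-- The marker types a `thr g θ` line can be adjacent to. -/
def Tthr (g : Grp h) (θ : Fin 4) : Finset ℕ :=
  {1, 2 + θ.val, 61 + 4 * g.code, 61 + 4 * g.code + 1, 61 + 4 * g.code + 2, 61 + 4 * g.code + 3}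

theorem Tthr_card (g : Grp h) (θ : Fin 4) : (Tthr g θ).card ≤ 6 := Finset.card_le_six

theorem mem_Tthr_of_row (g : Grp h) (θ : Fin 4) (i : Fin (2 ^ h)) {c : Line h}
    (hc : c.isPay = false) (hM : M (.thr g θ i) c = true) : ty c ∈ Tthr g θ := by
  cases c with
  | Y i => simp [isPay] at hc
  | leaf x => simp [isPay] at hc
  | core j k y => simp [isPay] at hc
  | Z i' => simp [ty, Tthr]
  | crown b i' =>
    simp only [M, decide_eq_true_eq] at hM
    simp [ty, Tthr, hM]
  | thr g' θ' i' =>
    simp only [M, decide_eq_true_eq] at hM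
    subst hM
    have h2 := θ'.isLt
    have : θ'.val = 0 ∨ θ'.val = 1 ∨ θ'.val = 2 ∨ θ'.val = 3 := by omega
    rcases this with h0 | h0 | h0 | h0 <;> simp [ty, Tthr, h0]

theorem mem_Tthr_of_col (g : Grp h) (θ : Fin 4) (i : Fin (2 ^ h)) {c : Line h}
    (hc : c.isPay = false) (hM : M c (.thr g θ i) = true) : ty c ∈ Tthr g θ := by
  cases c with
  | Y i => simp [isPay] at hc
  | leaf x => simp [isPay] at hc
  | core j k y => simp [isPay] at hc
  | Z i' => simp [ty, Tthr]
  | crown b i' =>
    simp only [M, decide_eq_true_eq] at hM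
    simp [ty, Tthr, hM]
  | thr g' θ' i' =>
    simp only [M, decide_eq_true_eq] at hM
    subst hM
    have h2 := θ'.isLt
    have : θ'.val = 0 ∨ θ'.val = 1 ∨ θ'.val = 2 ∨ θ'.val = 3 := by omega
    rcases this with h0 | h0 | h0 | h0 <;> simp [ty, Tthr, h0]

theorem mem_TZ_of_row (i : Fin (2 ^ h)) {c : Line h}
    (hc : c.isPay = false) (hM : M (.Z i) c = true) : ty c ∈ ({61} : Finset ℕ) := by
  cases c with
  | Y i => simp [isPay] at hc
  | leaf x => simp [isPay] at hc
  | core j k y => simp [isPay] at hc
  | Z i' => simp [M] at hM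
  | crown b i' => simp [M] at hM
  | thr g' θ' i' =>
    simp only [M, decide_eq_true_eq] at hM
    obtain ⟨hg, hθ⟩ := hM
    subst hg
    simp [ty, Grp.code, hθ]

theorem mem_TZ_of_col (i : Fin (2 ^ h)) {c : Line h}
    (hc : c.isPay = false) (hM : M c (.Z i) = true) : ty c ∈ ({61} : Finset ℕ) := by
  cases c with
  | Y i => simp [isPay] at hc
  | leaf x => simp [isPay] at hc
  | core j k y => simp [isPay] at hc
  | Z i' => simp [M] at hM
  | crown b i' => simp [M] at hM
  | thr g' θ' i' =>
    simp only [M, decide_eq_true_eq] at hM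
    obtain ⟨hg, hθ⟩ := hM
    subst hg
    simp [ty, Grp.code, hθ]

/-! ### The one-sided abstract step -/

/-- A marker row which is adjacent to at least seven marker columns of pairwise different types
(the columns `C b`, `b ∈ S`, `b ≠ a`, of a crown) is a crown line.  Abstract in the matrix `X`
so that it applies to `M` and to its transpose. -/
theorem marker_row_is_crown (X : Line h → Line h → Bool)
    (hty : ∀ (r : Line h) {c c' : Line h}, c.isPay = false → c'.isPay = false → ty c = ty c' →
      X r c = X r c')
    (hZ : ∀ (i : Fin (2 ^ h)) {c : Line h}, c.isPay = false → X (.Z i) c = true →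
      ty c ∈ ({61} : Finset ℕ))
    (hthr : ∀ (g : Grp h) (θ : Fin 4) (i : Fin (2 ^ h)) {c : Line h}, c.isPay = false →
      X (.thr g θ i) c = true → ty c ∈ Tthr g θ)
    (R C : Fin 59 → Line h) (hX : ∀ a b, X (R a) (C b) = decide (a ≠ b))
    (S : Finset (Fin 59)) (hS : ∀ b ∈ S, (C b).isPay = false) (hcard : 8 ≤ S.card)
    (a : Fin 59) (ha : (R a).isPay = false) : ∃ ρ i, R a = .crown ρ i := by
  -- the types of the columns `C b`, `b ∈ S`, are pairwise different
  have hinj : Set.InjOn (fun b => ty (C b)) (S.erase a : Set (Fin 59)) := by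
    intro b hb b' hb' hbb'
    by_contra hne
    have hb1 : b ∈ S := Finset.mem_of_mem_erase hb
    have hb1' : b' ∈ S := Finset.mem_of_mem_erase hb'
    have e := hty (R b) (hS b hb1) (hS b' hb1') hbb'
    rw [hX b b, hX b b'] at e
    simp [hne] at e
  have hbig : 7 ≤ (S.erase a).card := by
    have := Finset.pred_card_le_card_erase (s := S) (a := a)
    omega
  have hadj : ∀ b ∈ S.erase a, X (R a) (C b) = true := by
    intro b hb
    rw [hX a b]
    simp [(Finset.ne_of_mem_erase hb).symm]
  have key : ∀ T : Finset ℕ, T.card ≤ 6 → (∀ b ∈ S.erase a, ty (C b) ∈ T) → False := by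
    intro T hT hmem
    have := Finset.card_le_card_of_injOn (fun b => ty (C b)) hmem hinj
    omega
  cases hRa : R a with
  | Y i => rw [hRa] at ha; simp [isPay] at ha
  | leaf x => rw [hRa] at ha; simp [isPay] at ha
  | core j k y => rw [hRa] at ha; simp [isPay] at ha
  | Z i =>
    exfalso
    refine key {61} (by simp) (fun b hb => ?_)
    have := hadj b hb
    rw [hRa] at this
    exact hZ i (hS b (Finset.mem_of_mem_erase hb)) this
  | crown ρ i => exact ⟨ρ, i, rfl⟩
  | thr g θ i =>
    exfalso
    refine key (Tthr g θ) (Tthr_card g θ) (fun b hb => ?_)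
    have := hadj b hb
    rw [hRa] at this
    exact hthr g θ i (hS b (Finset.mem_of_mem_erase hb)) this

/-! ### Counting the marker–marker indices of a crown -/

/-- In a 59-crown of `M` at least 55 indices have both lines among the markers. -/
theorem mk_card (R C : Fin 59 → Line h) (hM : ∀ a b, M (R a) (C b) = decide (a ≠ b)) :
    55 ≤ (Finset.univ.filter fun a : Fin 59 =>
      (R a).isPay = false ∧ (C a).isPay = false).card := by
  set PP := Finset.univ.filter fun a : Fin 59 => (R a).isPay = true ∧ (C a).isPay = true with hPP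
  set MP := Finset.univ.filter fun a : Fin 59 => (R a).isPay = false ∧ (C a).isPay = true with hMP
  set PM := Finset.univ.filter fun a : Fin 59 => (R a).isPay = true ∧ (C a).isPay = false with hPM
  set Mk := Finset.univ.filter fun a : Fin 59 => (R a).isPay = false ∧ (C a).isPay = false with hMk
  have hcov : (Finset.univ : Finset (Fin 59)) ⊆ PP ∪ (MP ∪ (PM ∪ Mk)) := by
    intro a _
    simp only [hPP, hMP, hPM, hMk, Finset.mem_union, Finset.mem_filter, Finset.mem_univ, true_and]
    cases (R a).isPay <;> cases (C a).isPay <;> simp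
  have h59 : (Finset.univ : Finset (Fin 59)).card = 59 := by simp
  have hle := Finset.card_le_card hcov
  have hu1 := Finset.card_union_le PP (MP ∪ (PM ∪ Mk))
  have hu2 := Finset.card_union_le MP (PM ∪ Mk)
  have hu3 := Finset.card_union_le PM Mk
  have hPPc : PP.card ≤ 2 := by
    by_contra hcon
    have h3 : 2 < PP.card := by omega
    obtain ⟨a0, h0, a1, h1, a2, h2, h01, h02, h12⟩ := Finset.two_lt_card.mp h3
    simp only [hPP, Finset.mem_filter, Finset.mem_univ, true_and] at h0 h1 h2
    refine pay_no_crown3 ![R a0, R a1, R a2] ![C a0, C a1, C a2] ?_ ?_ ?_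
    · intro k; fin_cases k <;> simp [h0.1, h1.1, h2.1]
    · intro k; fin_cases k <;> simp [h0.2, h1.2, h2.2]
    · intro k l
      fin_cases k <;> fin_cases l <;>
        simp [hM, h01, h02, h12, Ne.symm h01, Ne.symm h02, Ne.symm h12]
  have hMPc : MP.card ≤ 1 := by
    by_contra hcon
    have h3 : 1 < MP.card := by omega
    obtain ⟨a0, h0, a1, h1, h01⟩ := Finset.one_lt_card.mp h3
    simp only [hMP, Finset.mem_filter, Finset.mem_univ, true_and] at h0 h1
    refine mark_pay_nested ![R a0, R a1] ![C a0, C a1] ?_ ?_ ?_
    · intro k; fin_cases k <;> simp [h0.1, h1.1]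
    · intro k; fin_cases k <;> simp [h0.2, h1.2]
    · intro k l
      fin_cases k <;> fin_cases l <;> simp [hM, h01, Ne.symm h01]
  have hPMc : PM.card ≤ 1 := by
    by_contra hcon
    have h3 : 1 < PM.card := by omega
    obtain ⟨a0, h0, a1, h1, h01⟩ := Finset.one_lt_card.mp h3
    simp only [hPM, Finset.mem_filter, Finset.mem_univ, true_and] at h0 h1
    refine pay_mark_nested ![R a0, R a1] ![C a0, C a1] ?_ ?_ ?_
    · intro k; fin_cases k <;> simp [h0.1, h1.1]
    · intro k; fin_cases k <;> simp [h0.2, h1.2]
    · intro k l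
      fin_cases k <;> fin_cases l <;> simp [hM, h01, Ne.symm h01]
  omega

/-! ### The crown lemma -/

/-- **R1b.** All lines of a 59-crown of `M` are crown lines. -/
theorem crown_lines (R C : Fin 59 → Line h) (hM : ∀ a b, M (R a) (C b) = decide (a ≠ b))
    (a : Fin 59) : (∃ ρ i, R a = crown ρ i) ∧ (∃ γ i, C a = crown γ i) := by
  set Mk := Finset.univ.filter fun a : Fin 59 =>
    (R a).isPay = false ∧ (C a).isPay = false with hMk
  have hMkc : 55 ≤ Mk.card := mk_card R C hM
  have hMk8 : 8 ≤ Mk.card := by omega
  have hMkR : ∀ b ∈ Mk, (R b).isPay = false := fun b hb => by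
    simp only [hMk, Finset.mem_filter, Finset.mem_univ, true_and] at hb; exact hb.1
  have hMkC : ∀ b ∈ Mk, (C b).isPay = false := fun b hb => by
    simp only [hMk, Finset.mem_filter, Finset.mem_univ, true_and] at hb; exact hb.2
  -- marker rows are crowns
  have rowM : ∀ b, (R b).isPay = false → ∃ ρ i, R b = crown ρ i := fun b hb =>
    marker_row_is_crown M (fun r _ _ hc hc' ht => M_col_of_ty r hc hc' ht)
      (fun i _ hc hm => mem_TZ_of_row i hc hm) (fun g θ i _ hc hm => mem_Tthr_of_row g θ i hc hm)
      R C hM Mk hMkC hMk8 b hb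
  -- marker columns are crowns (transpose)
  have colM : ∀ b, (C b).isPay = false → ∃ γ i, C b = crown γ i := fun b hb =>
    marker_row_is_crown (fun r c => M c r) (fun r _ _ hc hc' ht => M_row_of_ty r hc hc' ht)
      (fun i _ hc hm => mem_TZ_of_col i hc hm) (fun g θ i _ hc hm => mem_Tthr_of_col g θ i hc hm)
      C R (fun x y => by rw [hM y x]; simp [eq_comm]) Mk hMkR hMk8 b hb
  -- some index of `Mk` different from `a`
  have hex : ∃ b ∈ Mk, b ≠ a := by
    have h1 : 1 < Mk.card := by omega
    obtain ⟨b0, hb0, b1, hb1, hne⟩ := Finset.one_lt_card.mp h1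
    by_cases hb : b0 = a
    · exact ⟨b1, hb1, fun hb1a => hne (hb.trans hb1a.symm)⟩
    · exact ⟨b0, hb0, hb⟩
  obtain ⟨b, hbMk, hba⟩ := hex
  constructor
  · apply rowM
    by_contra hpay
    have hpay' : (R a).isPay = true := by simpa using hpay
    obtain ⟨γ, i, hCb⟩ := colM b (hMkC b hbMk)
    have h1 := hM a b
    rw [hCb, M_pay_crown hpay'] at h1
    simp [Ne.symm hba] at h1
  · apply colM
    by_contra hpay
    have hpay' : (C a).isPay = true := by simpa using hpay
    obtain ⟨ρ, i, hRb⟩ := rowM b (hMkR b hbMk)
    have h1 := hM b a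
    rw [hRb, M_crown_pay hpay'] at h1
    simp [hba] at h1

end Crest.Agent.Helper15.S0066
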